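import Vale.Agent.P088.R2.H747.S.Zn
import Vale.Agent.P088.R2.H338.E.Pay

/-!
# P088, stage 3: payment of the costs of the zones of type A

The cost of a zone of type A (`coA`, margin function `m`) is paid by every zone `M` whose margin
is at least `μ (|X a|² + |X b|²) + μ (X a² + Y b²)` at the point, provided `m ≤ Λ μ`.
-/

open MeasureTheory Set Filter
open scoped ContDiff Topology

noncomputable section

namespace Vale.Agent.P088.R2.H808.PF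

open Vale.Agent.P088.R2.H961.GW Vale.Agent.P088.R2.H960.W Vale.Agent.P088.R2.H644
open Vale.Agent.P088.R2.H551.E Vale.Agent.P088.R2.H747.SW

variable {E ι : Type*} [NormedAddCommGroup E] [NormedSpace ℝ E] [Fintype ι]

/-- The margin `M` contains `μ (|X a|² + |X b|²) + μ (X a² + Y b²)` at `z`. -/
structure Pays (M : Q8 E) (μ X Y : ℝ) (z : E) : Prop where
  κ : 0 ≤ M.κ z
  ζ₁ : μ ≤ M.ζ₁ z
  ζ₂ : μ ≤ M.ζ₂ z
  ζy : 0 ≤ M.ζy z
  w₁ : μ * X ≤ M.w₁ z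
  w₂ : μ * Y ≤ M.w₂ z
  wb : 0 ≤ M.wb z
  wc : 0 ≤ M.wc z

/-- Bounds of the derivatives of the cut-off and of the weight in one slot at one point. -/
structure Cb (σ : Sl E ι) (W χ : E → ℝ) (B D X : ℝ) (z : E) : Prop where
  d : ∑ i, σ.D i χ z ^ 2 ≤ B
  g : σ.Γ χ χ z ≤ 2 * B
  w : ∑ i, σ.D i W z ^ 2 ≤ D * X

/-- The numbers: `q` is the number of costs to be paid. -/
structure Nu (q η Λ B D X₀ : ℝ) : Prop where
  q0 : 0 < q
  η0 : 0 < η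
  Λ0 : 0 < Λ
  B0 : 0 ≤ B
  D0 : 0 ≤ D
  X0 : 0 < X₀
  n1 : q * (16 * η * Λ * B) ≤ 1
  n2 : q * (6 * Λ * B / η) ≤ 1 / 2 * X₀
  n3 : q * (72 * η * Λ * B * D) ≤ 1 / 2

omit [NormedAddCommGroup E] [NormedSpace ℝ E] [Fintype ι] in
theorem rh_le {m : E → ℝ} {z : E} (h : 0 ≤ m z) : rh m z ≤ m z / 2 := by
  unfold rh
  exact div_le_div_of_nonneg_left h (by norm_num) (by linarith)

/-- Coefficientwise: `q coA ≤ M`. -/
theorem coA_le {σ τ : Sl E ι} {W m χ : E → ℝ} {q η Λ B D X₀ μ X Y : ℝ} {M : Q8 E} {z : E}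
    (nu : Nu q η Λ B D X₀) (hm : 0 ≤ m z) (hΛ : m z ≤ Λ * μ)
    (c₁ : Cb σ W χ B D X z) (c₂ : Cb τ W χ B D Y z) (hX : X₀ ≤ X) (hY : X₀ ≤ Y)
    (p : Pays M μ X Y z) : Q8.Le ((coA σ τ W m χ η).sm fun _ => q) M z := by
  obtain ⟨q0, η0, Λ0, B0, D0, X0, n1, n2, n3⟩ := nu
  have hμ : 0 ≤ μ := by
    by_contra hc
    push Not at hc
    have := mul_neg_of_pos_of_neg Λ0 hc
    linarith
  have hr0 := rh_nonneg hm
  have hr : rh m z ≤ Λ * μ / 2 := (rh_le hm).trans (by linarith)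
  have sD₁ : 0 ≤ ∑ i, σ.D i χ z ^ 2 := Finset.sum_nonneg fun _ _ => sq_nonneg _
  have sD₂ : 0 ≤ ∑ i, τ.D i χ z ^ 2 := Finset.sum_nonneg fun _ _ => sq_nonneg _
  have sW₁ : 0 ≤ ∑ i, σ.D i W z ^ 2 := Finset.sum_nonneg fun _ _ => sq_nonneg _
  have sW₂ : 0 ≤ ∑ i, τ.D i W z ^ 2 := Finset.sum_nonneg fun _ _ => sq_nonneg _
  have key1 : ∀ S : ℝ, 0 ≤ S → S ≤ B → q * (32 * η * (rh m z * S)) ≤ μ := by
    intro S h0 h1
    have h2 : rh m z * S ≤ Λ * μ / 2 * B := mul_le_mul hr h1 h0 (by positivity)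
    calc q * (32 * η * (rh m z * S)) ≤ q * (32 * η * (Λ * μ / 2 * B)) := by gcongr
      _ = q * (16 * η * Λ * B) * μ := by ring
      _ ≤ 1 * μ := mul_le_mul_of_nonneg_right n1 hμ
      _ = μ := one_mul μ
  have key2 : ∀ S G w Z : ℝ, 0 ≤ S → S ≤ B → G ≤ 2 * B → 0 ≤ w → w ≤ D * Z → X₀ ≤ Z →
      q * (3 / η * (m z * G) + 144 * η * (rh m z * S * w)) ≤ μ * Z := by
    intro S G w Z h0 h1 h2 h3 h4 h5
    have hZ : 0 ≤ Z := X0.le.trans h5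
    have e1 : m z * G ≤ Λ * μ * (2 * B) :=
      (mul_le_mul_of_nonneg_left h2 hm).trans (mul_le_mul_of_nonneg_right hΛ (by positivity))
    have e2 : rh m z * S * w ≤ Λ * μ / 2 * B * (D * Z) :=
      mul_le_mul (mul_le_mul hr h1 h0 (by positivity)) h4 h3 (by positivity)
    calc q * (3 / η * (m z * G) + 144 * η * (rh m z * S * w))
        ≤ q * (3 / η * (Λ * μ * (2 * B)) + 144 * η * (Λ * μ / 2 * B * (D * Z))) := by gcongr
      _ = q * (6 * Λ * B / η) * μ + q * (72 * η * Λ * B * D) * (μ * Z) := by ring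
      _ ≤ 1 / 2 * X₀ * μ + 1 / 2 * (μ * Z) :=
          add_le_add (mul_le_mul_of_nonneg_right n2 hμ)
            (mul_le_mul_of_nonneg_right n3 (by positivity))
      _ ≤ 1 / 2 * Z * μ + 1 / 2 * (μ * Z) := by gcongr
      _ = μ * Z := by ring
  refine ⟨?_, ?_, ?_, ?_, ?_, ?_, ?_, ?_⟩
  · simpa [Q8.sm, coA] using p.κ
  · simp only [Q8.sm, coA, Pi.mul_apply]
    exact (key1 _ sD₁ c₁.d).trans p.ζ₁
  · simp only [Q8.sm, coA, Pi.mul_apply]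
    exact (key1 _ sD₂ c₂.d).trans p.ζ₂
  · simpa [Q8.sm, coA] using p.ζy
  · simp only [Q8.sm, coA, Pi.mul_apply]
    exact (key2 _ _ _ _ sD₁ c₁.d c₁.g sW₁ c₁.w hX).trans p.w₁
  · simp only [Q8.sm, coA, Pi.mul_apply]
    exact (key2 _ _ _ _ sD₂ c₂.d c₂.g sW₂ c₂.w hY).trans p.w₂
  · simpa [Q8.sm, coA] using p.wb
  · simpa [Q8.sm, coA] using p.wc

/-- **The payment of `coA`.** -/
theorem pay_coA {σ τ : Sl E ι} {v₁ v₂ W m χ a b : E → ℝ} {q η Λ B D X₀ μ X Y : ℝ} {M : Q8 E}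
    {z : E} (nu : Nu q η Λ B D X₀) (hm : 0 ≤ m z) (hΛ : m z ≤ Λ * μ)
    (c₁ : Cb σ W χ B D X z) (c₂ : Cb τ W χ B D Y z) (hX : X₀ ≤ X) (hY : X₀ ≤ Y)
    (p : Pays M μ X Y z) :
    q * (coA σ τ W m χ η).dens σ τ v₁ v₂ W a b z ≤ M.dens σ τ v₁ v₂ W a b z := by
  have h := Q8.dens_le (σ := σ) (τ := τ) (v₁ := v₁) (v₂ := v₂) (W := W) (a := a) (b := b)
    (coA_le nu hm hΛ c₁ c₂ hX hY p)
  rwa [Q8.dens_sm] at h

/-! ## The payers -/

/-- A zone of type A pays. -/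
theorem pays_MA {σ τ : Sl E ι} {W m : E → ℝ} {κ₀ : ℝ} {z : E} (hκ : κ₀ ≤ 1) :
    Pays (MA σ τ W m κ₀) (m z) (1 / 3 * σ.F W z) (1 / 3 * τ.F W z) z where
  κ := by simpa [MA] using hκ
  ζ₁ := by simp [MA]
  ζ₂ := by simp [MA]
  ζy := by simp [MA]
  w₁ := by simp only [MA]; exact le_of_eq (by ring)
  w₂ := by simp only [MA]; exact le_of_eq (by ring)
  wb := by simp [MA]
  wc := by simp [MA]

omit [NormedAddCommGroup E] [NormedSpace ℝ E] in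
/-- Weaker payers. -/
theorem Pays.mono {M M' : Q8 E} {μ X Y μ' X' Y' : ℝ} {z : E} (p : Pays M μ X Y z)
    (h : Q8.Le M M' z) (hμ : μ' ≤ μ) (hX : μ' * X' ≤ μ * X) (hY : μ' * Y' ≤ μ * Y) :
    Pays M' μ' X' Y' z where
  κ := p.κ.trans h.κ
  ζ₁ := (hμ.trans p.ζ₁).trans h.ζ₁
  ζ₂ := (hμ.trans p.ζ₂).trans h.ζ₂
  ζy := p.ζy.trans h.ζy
  w₁ := (hX.trans p.w₁).trans h.w₁
  w₂ := (hY.trans p.w₂).trans h.w₂
  wb := p.wb.trans h.wb
  wc := p.wc.trans h.wc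

end Vale.Agent.P088.R2.H808.PF
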